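import Vale.Agent.P091.H74.Spec

/-! # P091: the floor reduction `HEAVY_FLOOR → HEAVY`

In `Spec.HEAVY` the class `k` has mass `≥ e^{-C0 D}` in its start node.  Here we show that one may
add for free that the class has mass `≥ e^{-C1 D}` in **every** node below the start node which
contains a leaf with `A k i ≠ 0`. -/

open Finset

namespace Vale.Agent.P091.T.H960

open Vale.Agent.P091.Spec

/-- the heavy part with a floor for the class masses -/
def HEAVY_FLOOR : Prop := ∀ C0 C1 : ℝ, 0 ≤ C0 → 0 ≤ C1 → ∃ C : ℝ, ∀ (D : ℝ) (n : ℕ) (ι : Type)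
  [Fintype ι] (d : HData C0 D n ι), 2 ≤ D →
  (∀ k i, d.A k i ≠ 0 → ∀ j, d.js k ≤ j → j ≤ n →
    Real.exp (-(C1 * D)) ≤ av n j (anc n j i) (d.a k)) → ‖d.gain‖ ≤ C * D

/-! ## sums over nodes -/

lemma sum_double {M : Type*} [AddCommMonoid M] (N : ℕ) (F : ℕ → M) :
    ∑ v ∈ range N, (F (2 * v) + F (2 * v + 1)) = ∑ c ∈ range (2 * N), F c := by
  induction N with
  | zero => simp
  | succ N ih =>
    rw [sum_range_succ, ih, show 2 * (N + 1) = 2 * N + 1 + 1 by ring, sum_range_succ,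
      sum_range_succ, add_assoc]

lemma sum_blocks {M : Type*} [AddCommMonoid M] (N m : ℕ) (F : ℕ → M) :
    ∑ i ∈ range (N * m), F i = ∑ v ∈ range N, ∑ i ∈ Ico (v * m) ((v + 1) * m), F i := by
  induction N with
  | zero => simp
  | succ N ih =>
    rw [sum_range_succ, ← ih, range_eq_Ico, range_eq_Ico,
      sum_Ico_consecutive F (Nat.zero_le _) (Nat.mul_le_mul_right m (Nat.le_succ N))]

lemma sum_nodes {M : Type*} [AddCommMonoid M] {n j : ℕ} (hj : j ≤ n) (F : ℕ → M) :
    ∑ i ∈ range (2 ^ n), F i = ∑ v ∈ range (2 ^ j), ∑ i ∈ nd n j v, F i := by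
  have h : 2 ^ n = 2 ^ j * 2 ^ (n - j) := by rw [← pow_add]; congr 1; omega
  conv_lhs => rw [h]
  rw [sum_blocks]
  rfl

lemma anc_of_mem {n j v i : ℕ} (hi : i ∈ nd n j v) : anc n j i = v := by
  unfold nd at hi
  rw [mem_Ico] at hi
  unfold anc
  exact Nat.div_eq_of_lt_le hi.1 hi.2

lemma mem_nd_anc (n j i : ℕ) : i ∈ nd n j (anc n j i) := by
  unfold nd anc
  rw [mem_Ico]
  have hp : 0 < 2 ^ (n - j) := by positivity
  constructor
  · exact Nat.div_mul_le_self i _
  · have := Nat.lt_div_mul_add hp (a := i)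
    calc i < i / 2 ^ (n - j) * 2 ^ (n - j) + 2 ^ (n - j) := this
      _ = (i / 2 ^ (n - j) + 1) * 2 ^ (n - j) := by ring

lemma card_nd (n j v : ℕ) : (nd n j v).card = 2 ^ (n - j) := by
  unfold nd
  rw [Nat.card_Ico]
  have : (v + 1) * 2 ^ (n - j) = v * 2 ^ (n - j) + 2 ^ (n - j) := by ring
  rw [this]; exact Nat.add_sub_cancel_left _ _

/-- a node is the disjoint union of its children -/
lemma sum_children {M : Type*} [AddCommMonoid M] {n j : ℕ} (hj : j < n) (v : ℕ) (F : ℕ → M) :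
    ∑ i ∈ nd n j v, F i = ∑ i ∈ nd n (j + 1) (2 * v), F i + ∑ i ∈ nd n (j + 1) (2 * v + 1), F i := by
  unfold nd
  have h : 2 ^ (n - j) = 2 * 2 ^ (n - (j + 1)) := by
    rw [← pow_succ']; congr 1; omega
  have e1 : v * 2 ^ (n - j) = 2 * v * 2 ^ (n - (j + 1)) := by rw [h]; ring
  have e2 : (v + 1) * 2 ^ (n - j) = (2 * v + 1 + 1) * 2 ^ (n - (j + 1)) := by rw [h]; ring
  rw [e1, e2, sum_Ico_consecutive F]
  · exact Nat.mul_le_mul_right _ (by omega)
  · exact Nat.mul_le_mul_right _ (by omega)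

lemma avC_children {n j : ℕ} (hj : j < n) (v : ℕ) (F : ℕ → ℂ) :
    avC n j v F = (avC n (j + 1) (2 * v) F + avC n (j + 1) (2 * v + 1) F) / 2 := by
  unfold avC
  rw [sum_children hj]
  have h : (2 : ℂ) ^ (n - j) = 2 * 2 ^ (n - (j + 1)) := by
    rw [← pow_succ']; congr 1; omega
  rw [h]
  have : (2 : ℂ) ^ (n - (j + 1)) ≠ 0 := pow_ne_zero _ two_ne_zero
  field_simp

/-! ## the energy identity -/

/-- half the difference over the children, for a general leaf function -/
noncomputable def dX (n : ℕ) (X : ℕ → ℂ) (j v : ℕ) : ℂ :=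
  (avC n (j + 1) (2 * v) X - avC n (j + 1) (2 * v + 1) X) / 2

lemma par (a b : ℂ) : ‖a‖ ^ 2 + ‖b‖ ^ 2 = 2 * ‖(a + b) / 2‖ ^ 2 + 2 * ‖(a - b) / 2‖ ^ 2 := by
  have h := parallelogram_law_with_norm ℝ a b
  rw [norm_div, norm_div]
  simp only [Complex.norm_ofNat]
  have e1 : ‖a + b‖ * ‖a + b‖ = ‖a + b‖ ^ 2 := by ring
  have e2 : ‖a - b‖ * ‖a - b‖ = ‖a - b‖ ^ 2 := by ring
  nlinarith [h]

/-- energy of the averages of level `j` -/
noncomputable def EN (n : ℕ) (X : ℕ → ℂ) (j : ℕ) : ℝ :=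
  ∑ v ∈ range (2 ^ j), (2 : ℝ) ^ (n - j) * ‖avC n j v X‖ ^ 2

/-- energy of the differences of level `j` -/
noncomputable def ED (n : ℕ) (X : ℕ → ℂ) (j : ℕ) : ℝ :=
  ∑ v ∈ range (2 ^ j), (2 : ℝ) ^ (n - j) * ‖dX n X j v‖ ^ 2

lemma EN_succ {n j : ℕ} (hj : j < n) (X : ℕ → ℂ) : EN n X (j + 1) = EN n X j + ED n X j := by
  unfold EN ED
  rw [pow_succ' 2 j, ← sum_double (2 ^ j)
    (fun c => (2 : ℝ) ^ (n - (j + 1)) * ‖avC n (j + 1) c X‖ ^ 2), ← sum_add_distrib]
  refine sum_congr rfl fun v _ => ?_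
  have h : (2 : ℝ) ^ (n - j) = 2 * 2 ^ (n - (j + 1)) := by
    rw [← pow_succ']; congr 1; omega
  rw [h, avC_children hj]
  have := par (avC n (j + 1) (2 * v) X) (avC n (j + 1) (2 * v + 1) X)
  unfold dX
  linear_combination (2 : ℝ) ^ (n - (j + 1)) * this

lemma EN_top (n : ℕ) (X : ℕ → ℂ) : EN n X n = ∑ i ∈ range (2 ^ n), ‖X i‖ ^ 2 := by
  unfold EN avC nd
  simp

lemma EN_nonneg (n : ℕ) (X : ℕ → ℂ) (j : ℕ) : 0 ≤ EN n X j :=
  sum_nonneg fun v _ => by positivity

lemma ED_nonneg (n : ℕ) (X : ℕ → ℂ) (j : ℕ) : 0 ≤ ED n X j :=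
  sum_nonneg fun v _ => by positivity

lemma sum_ED {n : ℕ} (X : ℕ → ℂ) : ∀ m ≤ n, ∑ j ∈ range m, ED n X j = EN n X m - EN n X 0 := by
  intro m
  induction m with
  | zero => intro _; simp
  | succ m ih =>
    intro hm
    rw [sum_range_succ, ih (by omega), EN_succ (by omega)]
    ring

lemma sum_ED_le {n : ℕ} (X : ℕ → ℂ) {s : Finset ℕ} (hs : ∀ j ∈ s, j < n) :
    ∑ j ∈ s, ED n X j ≤ ∑ i ∈ range (2 ^ n), ‖X i‖ ^ 2 := by
  calc ∑ j ∈ s, ED n X j ≤ ∑ j ∈ range n, ED n X j :=
        sum_le_sum_of_subset_of_nonneg (fun j hj => mem_range.2 (hs j hj))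
          fun j _ _ => ED_nonneg n X j
    _ = EN n X n - EN n X 0 := sum_ED X n le_rfl
    _ ≤ EN n X n := by linarith [EN_nonneg n X 0]
    _ = _ := EN_top n X

/-! ## the Haar shift form -/

/-- the average of `A * sg` over a node is a half difference of half differences -/
lemma sg_avg {n j : ℕ} (hj : j + 2 ≤ n) (v : ℕ) (A : ℕ → ℂ) :
    ∑ i ∈ nd n j v, A i * (sg n j i : ℂ) =
      2 ^ (n - j) * ((dX n A (j + 1) (2 * v) - dX n A (j + 1) (2 * v + 1)) / 2) := by
  have hg : ∀ g : ℕ, g < 4 → ∑ i ∈ nd n (j + 2) (4 * v + g), A i * (sg n j i : ℂ) =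
      (if g = 0 ∨ g = 3 then 1 else -1) * ∑ i ∈ nd n (j + 2) (4 * v + g), A i := by
    intro g hg
    rw [mul_sum]
    refine sum_congr rfl fun i hi => ?_
    have h1 : i / 2 ^ (n - j - 2) = 4 * v + g := by
      have := anc_of_mem hi
      unfold anc at this
      rwa [show n - j - 2 = n - (j + 2) by omega]
    unfold sg
    rw [h1, show (4 * v + g) % 4 = g by omega]
    split_ifs with h
    · simp
    · push_cast; ring
  rw [sum_children (by omega), sum_children (show j + 1 < n by omega),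
    sum_children (show j + 1 < n by omega)]
  have a0 : 2 * (2 * v) = 4 * v + 0 := by ring
  have a1 : 2 * (2 * v) + 1 = 4 * v + 1 := by ring
  have a2 : 2 * (2 * v + 1) = 4 * v + 2 := by ring
  have a3 : 2 * (2 * v + 1) + 1 = 4 * v + 3 := by ring
  rw [a1, a2, a0, hg 0 (by norm_num), hg 1 (by norm_num), hg 2 (by norm_num)]
  rw [show 4 * v + 2 + 1 = 4 * v + 3 by ring, hg 3 (by norm_num)]
  unfold dX avC
  rw [show 2 * (2 * v) + 1 = 4 * v + 1 by ring, show 2 * (2 * v + 1) = 4 * v + 2 by ring,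
    show 4 * v + 2 + 1 = 4 * v + 3 by ring, show 2 * (2 * v) = 4 * v + 0 by ring]
  have h : (2 : ℂ) ^ (n - j) = 4 * 2 ^ (n - (j + 1 + 1)) := by
    rw [show n - j = n - (j + 1 + 1) + 2 by omega, pow_add]; ring
  rw [h]
  have h0 : (2 : ℂ) ^ (n - (j + 1 + 1)) ≠ 0 := pow_ne_zero _ two_ne_zero
  simp
  field_simp
  ring

/-- energy of the node averages of `A * sg` -/
lemma sg_energy {n j : ℕ} (hj : j + 2 ≤ n) (A : ℕ → ℂ) :
    ∑ v ∈ range (2 ^ j), (2 : ℝ) ^ (n - j) *
      ‖(dX n A (j + 1) (2 * v) - dX n A (j + 1) (2 * v + 1)) / 2‖ ^ 2 ≤ ED n A (j + 1) := by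
  unfold ED
  rw [pow_succ' 2 j, ← sum_double (2 ^ j)
    (fun c => (2 : ℝ) ^ (n - (j + 1)) * ‖dX n A (j + 1) c‖ ^ 2)]
  refine sum_le_sum fun v _ => ?_
  have h : (2 : ℝ) ^ (n - j) = 2 * 2 ^ (n - (j + 1)) := by
    rw [← pow_succ']; congr 1; omega
  rw [h]
  have hp := par (dX n A (j + 1) (2 * v)) (dX n A (j + 1) (2 * v + 1))
  have h0 : (0 : ℝ) < 2 ^ (n - (j + 1)) := by positivity
  have h1 : 0 ≤ ‖(dX n A (j + 1) (2 * v) + dX n A (j + 1) (2 * v + 1)) / 2‖ ^ 2 := by positivity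
  nlinarith [mul_nonneg h0.le h1]

/-- the bilinear form of one level -/
lemma form_level {n j : ℕ} (hj : j + 2 ≤ n) (A : ℕ → ℂ) (X : ℕ → ℂ) :
    ∑ i ∈ range (2 ^ n), A i * (sg n j i : ℂ) * dX n X j (anc n j i) =
      ∑ v ∈ range (2 ^ j), (2 : ℂ) ^ (n - j) *
        ((dX n A (j + 1) (2 * v) - dX n A (j + 1) (2 * v + 1)) / 2) * dX n X j v := by
  rw [sum_nodes (show j ≤ n by omega)]
  refine sum_congr rfl fun v _ => ?_
  rw [← sg_avg hj v A, sum_mul]
  refine sum_congr rfl fun i hi => ?_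
  rw [anc_of_mem hi]

/-- Cauchy-Schwarz for the Haar shift form -/
lemma form_le {n : ℕ} (A X : ℕ → ℂ) {s : Finset ℕ} (hs : ∀ j ∈ s, j + 2 ≤ n) :
    ‖∑ j ∈ s, ∑ i ∈ range (2 ^ n), A i * (sg n j i : ℂ) * dX n X j (anc n j i)‖ ≤
      Real.sqrt (∑ i ∈ range (2 ^ n), ‖A i‖ ^ 2) * Real.sqrt (∑ i ∈ range (2 ^ n), ‖X i‖ ^ 2) := by
  have h1 : ‖∑ j ∈ s, ∑ i ∈ range (2 ^ n), A i * (sg n j i : ℂ) * dX n X j (anc n j i)‖ ≤
      ∑ j ∈ s, ∑ v ∈ range (2 ^ j), ((2 : ℝ) ^ (n - j) *
        ‖(dX n A (j + 1) (2 * v) - dX n A (j + 1) (2 * v + 1)) / 2‖ * ‖dX n X j v‖) := by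
    refine (norm_sum_le _ _).trans (sum_le_sum fun j hj => ?_)
    rw [form_level (hs j hj)]
    refine (norm_sum_le _ _).trans (sum_le_sum fun v _ => ?_)
    rw [norm_mul, norm_mul]
    simp
  refine h1.trans ?_
  rw [sum_sigma']
  have key : ∀ x ∈ s.sigma fun j => range (2 ^ j), ((2 : ℝ) ^ (n - x.1) *
      ‖(dX n A (x.1 + 1) (2 * x.2) - dX n A (x.1 + 1) (2 * x.2 + 1)) / 2‖ * ‖dX n X x.1 x.2‖) =
      (Real.sqrt (2 ^ (n - x.1)) *
        ‖(dX n A (x.1 + 1) (2 * x.2) - dX n A (x.1 + 1) (2 * x.2 + 1)) / 2‖) *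
      (Real.sqrt (2 ^ (n - x.1)) * ‖dX n X x.1 x.2‖) := by
    intro x _
    have : (2 : ℝ) ^ (n - x.1) = Real.sqrt (2 ^ (n - x.1)) * Real.sqrt (2 ^ (n - x.1)) :=
      (Real.mul_self_sqrt (by positivity)).symm
    conv_lhs => rw [this]
    ring
  rw [sum_congr rfl key]
  refine (Real.sum_mul_le_sqrt_mul_sqrt _ _ _).trans ?_
  refine mul_le_mul (Real.sqrt_le_sqrt ?_) (Real.sqrt_le_sqrt ?_) (Real.sqrt_nonneg _)
    (Real.sqrt_nonneg _)
  · rw [sum_sigma]
    have : ∀ j ∈ s, ∑ v ∈ range (2 ^ j), (Real.sqrt (2 ^ (n - j)) *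
        ‖(dX n A (j + 1) (2 * v) - dX n A (j + 1) (2 * v + 1)) / 2‖) ^ 2 ≤ ED n A (j + 1) := by
      intro j hj
      refine le_trans (le_of_eq ?_) (sg_energy (hs j hj) A)
      refine sum_congr rfl fun v _ => ?_
      rw [mul_pow, Real.sq_sqrt (by positivity)]
    refine (sum_le_sum this).trans ?_
    have h2 : ∑ j ∈ s, ED n A (j + 1) = ∑ j ∈ s.image (· + 1), ED n A j := by
      rw [sum_image (fun a _ b _ h => Nat.succ_injective h)]
    rw [h2]
    refine sum_ED_le A fun j hj => ?_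
    rw [mem_image] at hj
    obtain ⟨a, ha, rfl⟩ := hj
    have := hs a ha
    omega
  · rw [sum_sigma]
    have : ∀ j ∈ s, ∑ v ∈ range (2 ^ j), (Real.sqrt (2 ^ (n - j)) * ‖dX n X j v‖) ^ 2 =
        ED n X j := by
      intro j _
      refine sum_congr rfl fun v _ => ?_
      rw [mul_pow, Real.sq_sqrt (by positivity)]
    rw [sum_congr rfl this]
    exact sum_ED_le X fun j hj => by have := hs j hj; omega

/-! ## the maximal inequality -/

lemma av_eq {n j v : ℕ} (F : ℕ → ℝ) : ∑ i ∈ nd n j v, F i = av n j v F * 2 ^ (n - j) := by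
  unfold av
  have : (2 : ℝ) ^ (n - j) ≠ 0 := by positivity
  field_simp

open Classical in
lemma bad_mass {n : ℕ} (a : ℕ → ℝ) (ha : ∀ i, 0 ≤ a i) (c : ℝ) (hc : 0 ≤ c) : ∀ m j v : ℕ,
    j + m = n → ∑ i ∈ nd n j v, (if ∃ j', j ≤ j' ∧ j' ≤ n ∧ av n j' (anc n j' i) a < c then a i
      else 0) ≤ c * 2 ^ (n - j) := by
  intro m
  induction m with
  | zero =>
    intro j v hj
    have hj' : j = n := by omega
    subst hj'
    by_cases h : av j j v a < c
    · calc _ ≤ ∑ i ∈ nd j j v, a i := by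
            refine sum_le_sum fun i _ => ?_
            split_ifs
            · exact le_rfl
            · exact ha i
        _ = av j j v a * 2 ^ (j - j) := av_eq a
        _ ≤ _ := mul_le_mul_of_nonneg_right h.le (by positivity)
    · have : ∀ i ∈ nd j j v, (if ∃ j', j ≤ j' ∧ j' ≤ j ∧ av j j' (anc j j' i) a < c then a i
          else 0) = 0 := by
        intro i hi
        rw [if_neg]
        rintro ⟨j', h1, h2, h3⟩
        have : j' = j := le_antisymm h2 h1
        subst this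
        rw [anc_of_mem hi] at h3
        exact h h3
      rw [sum_congr rfl this, sum_const_zero]
      positivity
  | succ m ih =>
    intro j v hj
    by_cases h : av n j v a < c
    · calc _ ≤ ∑ i ∈ nd n j v, a i := by
            refine sum_le_sum fun i _ => ?_
            split_ifs
            · exact le_rfl
            · exact ha i
        _ = av n j v a * 2 ^ (n - j) := av_eq a
        _ ≤ _ := mul_le_mul_of_nonneg_right h.le (by positivity)
    · have hcong : ∀ i ∈ nd n j v, (if ∃ j', j ≤ j' ∧ j' ≤ n ∧ av n j' (anc n j' i) a < c then a i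
          else 0) = (if ∃ j', j + 1 ≤ j' ∧ j' ≤ n ∧ av n j' (anc n j' i) a < c then a i
          else 0) := by
        intro i hi
        congr 1
        apply propext
        constructor
        · rintro ⟨j', h1, h2, h3⟩
          rcases Nat.eq_or_lt_of_le h1 with h4 | h4
          · subst h4
            rw [anc_of_mem hi] at h3
            exact absurd h3 h
          · exact ⟨j', h4, h2, h3⟩
        · rintro ⟨j', h1, h2, h3⟩
          exact ⟨j', by omega, h2, h3⟩
      rw [sum_congr rfl hcong, sum_children (by omega)]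
      have h0 := ih (j + 1) (2 * v) (by omega)
      have h1 := ih (j + 1) (2 * v + 1) (by omega)
      have h2 : (2 : ℝ) ^ (n - j) = 2 * 2 ^ (n - (j + 1)) := by
        rw [← pow_succ']; congr 1; omega
      rw [h2]
      linarith

/-! ## nodes inside nodes -/

lemma anc_anc {n j j' i : ℕ} (h : j ≤ j') (h' : j' ≤ n) :
    anc n j i = anc n j' i / 2 ^ (j' - j) := by
  unfold anc
  rw [Nat.div_div_eq_div_mul, ← pow_add]
  congr 2
  omega

lemma mem_of_anc {n js ac i : ℕ} (h : anc n js i = ac) : i ∈ nd n js ac := by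
  rw [← h]; exact mem_nd_anc n js i

/-- children of nodes inside `w` are inside `w` -/
lemma child_sub {n js ac j i i' c : ℕ} (hi : i ∈ nd n js ac) (hj : js ≤ j) (hjn : j < n)
    (hc : c = 2 * anc n j i ∨ c = 2 * anc n j i + 1) (hi' : i' ∈ nd n (j + 1) c) :
    i' ∈ nd n js ac := by
  apply mem_of_anc
  have h1 : anc n (j + 1) i' = c := anc_of_mem hi'
  have h2 : anc n j i' = anc n j i := by
    rw [anc_anc (show j ≤ j + 1 by omega) (show j + 1 ≤ n by omega), h1,
      show j + 1 - j = 1 by omega, pow_one]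
    rcases hc with rfl | rfl <;> omega
  rw [anc_anc hj hjn.le, h2, ← anc_anc hj hjn.le, anc_of_mem hi]

lemma norm_e (t : ℝ) : ‖e t‖ = 1 := by
  unfold e
  have : (2 * Real.pi * Complex.I * t : ℂ) = ((2 * Real.pi * t : ℝ) : ℂ) * Complex.I := by
    push_cast; ring
  rw [this, Complex.norm_exp_ofReal_mul_I]

lemma nd_sub {n js ac : ℕ} (hjs : js ≤ n) (hac : ac < 2 ^ js) : nd n js ac ⊆ range (2 ^ n) := by
  intro i hi
  unfold nd at hi
  rw [mem_Ico] at hi
  rw [mem_range]
  calc i < (ac + 1) * 2 ^ (n - js) := hi.2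
    _ ≤ 2 ^ js * 2 ^ (n - js) := Nat.mul_le_mul_right _ hac
    _ = 2 ^ n := by rw [← pow_add]; congr 1; omega

lemma log_sq_le {D : ℝ} (hD : 2 ≤ D) : Real.log D ^ 2 ≤ Real.exp D := by
  have h1 : Real.log D ≤ D / 2 := by
    have h2 : Real.log (D / 2) ≤ D / 2 - 1 := Real.log_le_sub_one_of_pos (by linarith)
    rw [Real.log_div (by linarith) (by norm_num)] at h2
    have := Real.log_two_lt_d9
    linarith
  have h0 : 0 ≤ Real.log D := Real.log_nonneg (by linarith)
  have h3 : D / 2 ≤ Real.exp (D / 2) := by linarith [Real.add_one_le_exp (D / 2)]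
  calc Real.log D ^ 2 ≤ Real.exp (D / 2) ^ 2 := by
        apply pow_le_pow_left₀ h0 (h1.trans h3)
    _ = Real.exp D := by rw [← Real.exp_nat_mul]; congr 1; push_cast; ring

open Classical in
/-- the contribution of the bad leaves of one class -/
lemma bad_class {C0 D : ℝ} (hD : 2 ≤ D) {n js ac : ℕ} (hjs : js ≤ n) (hac : ac < 2 ^ js)
    (p a : ℕ → ℝ) (A : ℕ → ℂ) (ξ : ℝ) (hp : ∀ i, 0 ≤ p i) (hpD : ∀ i, p i ≤ Real.exp D)
    (ha : ∀ i, 0 ≤ a i) (ha1 : ∀ i, a i ≤ 1) (hsupp : ∀ i, a i ≠ 0 → i ∈ nd n js ac)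
    (hmass : Real.exp (-(C0 * D)) ≤ av n js ac a) (hA : ∀ i, ‖A i‖ ≤ a i)
    (hal : ∀ i, A i ≠ 0 → ∀ j ≤ n, av n j (anc n j i) p ≤ Real.log D ^ 2) :
    ‖∑ j ∈ Ico (js + 3) (n - 1), ∑ i ∈ range (2 ^ n),
      (if ∃ j', js ≤ j' ∧ j' ≤ n ∧ av n j' (anc n j' i) a <
        Real.exp (-((C0 + 2) * D)) * av n js ac a then A i else 0) * (sg n j i : ℂ) *
        dB n p ξ j (anc n j i)‖ ≤ ∑ i ∈ range (2 ^ n), a i := by
  set t : ℝ := Real.exp (-((C0 + 2) * D)) with ht
  set c : ℝ := t * av n js ac a with hc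
  set B : ℕ → ℂ := fun i => if ∃ j', js ≤ j' ∧ j' ≤ n ∧ av n j' (anc n j' i) a < c then A i else 0
    with hB
  set X : ℕ → ℂ := fun i => if i ∈ nd n js ac then (p i : ℂ) * e (-(ξ * i)) else 0 with hX
  by_cases hz : ∀ i, A i = 0
  · have : ∀ j ∈ Ico (js + 3) (n - 1), ∑ i ∈ range (2 ^ n), B i * (sg n j i : ℂ) *
        dB n p ξ j (anc n j i) = 0 := by
      intro j _
      refine sum_eq_zero fun i _ => ?_
      simp [hB, hz]
    rw [sum_congr rfl this, sum_const_zero, norm_zero]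
    exact sum_nonneg fun i _ => ha i
  · push Not at hz
    obtain ⟨i0, hi0⟩ := hz
    have hi0w : i0 ∈ nd n js ac := by
      apply hsupp
      intro h
      have := hA i0
      rw [h] at this
      exact hi0 (norm_le_zero_iff.1 this)
    have halive : av n js ac p ≤ Real.log D ^ 2 := by
      have := hal i0 hi0 js hjs
      rwa [anc_of_mem hi0w] at this
    have hBw : ∀ i, B i ≠ 0 → i ∈ nd n js ac := by
      intro i hi
      apply hsupp
      intro h
      apply hi
      simp only [hB]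
      split_ifs
      · have := hA i
        rw [h] at this
        exact norm_le_zero_iff.1 this
      · rfl
    have hrew : ∑ j ∈ Ico (js + 3) (n - 1), ∑ i ∈ range (2 ^ n), B i * (sg n j i : ℂ) *
        dB n p ξ j (anc n j i) = ∑ j ∈ Ico (js + 3) (n - 1), ∑ i ∈ range (2 ^ n),
          B i * (sg n j i : ℂ) * dX n X j (anc n j i) := by
      refine sum_congr rfl fun j hj => sum_congr rfl fun i _ => ?_
      rw [mem_Ico] at hj
      by_cases hi : B i = 0
      · rw [hi]; simp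
      · have hiw := hBw i hi
        congr 1
        unfold dB dX BB avC
        congr 3
        · refine sum_congr rfl fun i' hi' => ?_
          rw [hX]
          simp only
          rw [if_pos (child_sub hiw (by omega) (by omega) (Or.inl rfl) hi')]
        · refine sum_congr rfl fun i' hi' => ?_
          rw [hX]
          simp only
          rw [if_pos (child_sub hiw (by omega) (by omega) (Or.inr rfl) hi')]
    rw [hrew]
    refine (form_le B X (s := Ico (js + 3) (n - 1)) fun j hj => by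
      rw [mem_Ico] at hj; omega).trans ?_
    have hM : Real.exp (-(C0 * D)) ≤ av n js ac a := hmass
    have hM0 : 0 < av n js ac a := lt_of_lt_of_le (Real.exp_pos _) hM
    have hS : ∑ i ∈ range (2 ^ n), a i = av n js ac a * 2 ^ (n - js) := by
      rw [← av_eq, ← sum_subset (nd_sub hjs hac)]
      intro i _ hi
      by_contra h
      exact hi (hsupp i h)
    have hB2 : ∑ i ∈ range (2 ^ n), ‖B i‖ ^ 2 ≤ c * 2 ^ (n - js) := by
      have h1 : ∑ i ∈ range (2 ^ n), ‖B i‖ ^ 2 = ∑ i ∈ nd n js ac, ‖B i‖ ^ 2 := by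
        symm
        apply sum_subset (nd_sub hjs hac)
        intro i _ hi
        by_contra h
        apply hi
        apply hBw
        intro h2
        apply h
        rw [h2]; simp
      rw [h1]
      refine le_trans (sum_le_sum fun i _ => ?_) (bad_mass a ha c (by positivity) (n - js) js ac
        (by omega))
      simp only [hB]
      split_ifs
      · have h2 := hA i
        have h3 := ha1 i
        have h4 := norm_nonneg (A i)
        nlinarith
      · simp
    have hX2 : ∑ i ∈ range (2 ^ n), ‖X i‖ ^ 2 ≤ Real.exp D * Real.log D ^ 2 * 2 ^ (n - js) := by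
      have h1 : ∑ i ∈ range (2 ^ n), ‖X i‖ ^ 2 = ∑ i ∈ nd n js ac, p i ^ 2 := by
        rw [← sum_subset (nd_sub hjs hac)]
        · refine sum_congr rfl fun i hi => ?_
          rw [hX]
          simp only
          rw [if_pos hi, norm_mul, norm_e, mul_one, Complex.norm_real, Real.norm_of_nonneg (hp i)]
        · intro i _ hi
          rw [hX]
          simp only
          rw [if_neg hi]
          simp
      rw [h1]
      calc ∑ i ∈ nd n js ac, p i ^ 2 ≤ ∑ i ∈ nd n js ac, Real.exp D * p i := by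
            refine sum_le_sum fun i _ => ?_
            have := hpD i
            have h0 := hp i
            nlinarith
        _ = Real.exp D * (av n js ac p * 2 ^ (n - js)) := by rw [← mul_sum, av_eq]
        _ ≤ Real.exp D * (Real.log D ^ 2 * 2 ^ (n - js)) := by gcongr
        _ = _ := by ring
    set S : ℝ := ∑ i ∈ range (2 ^ n), a i with hSdef
    have hS0 : 0 ≤ S := sum_nonneg fun i _ => ha i
    have hB3 : c * 2 ^ (n - js) = t * S := by rw [hS, hc]; ring
    have hX3 : Real.exp D * Real.log D ^ 2 * 2 ^ (n - js) ≤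
        Real.exp D * Real.log D ^ 2 * (Real.exp (C0 * D) * S) := by
      apply mul_le_mul_of_nonneg_left _ (by positivity)
      rw [hS]
      have h1 : 1 ≤ Real.exp (C0 * D) * av n js ac a := by
        calc (1 : ℝ) = Real.exp (C0 * D) * Real.exp (-(C0 * D)) := by
              rw [← Real.exp_add]; simp
          _ ≤ _ := mul_le_mul_of_nonneg_left hM (Real.exp_pos _).le
      have h2 : (0 : ℝ) < 2 ^ (n - js) := by positivity
      nlinarith
    calc Real.sqrt (∑ i ∈ range (2 ^ n), ‖B i‖ ^ 2) * Real.sqrt (∑ i ∈ range (2 ^ n), ‖X i‖ ^ 2)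
        ≤ Real.sqrt (t * S) * Real.sqrt (Real.exp D * Real.log D ^ 2 * (Real.exp (C0 * D) * S)) :=
          mul_le_mul (Real.sqrt_le_sqrt (hB2.trans hB3.le)) (Real.sqrt_le_sqrt (hX2.trans hX3))
            (Real.sqrt_nonneg _) (Real.sqrt_nonneg _)
      _ = Real.sqrt ((t * S) * (Real.exp D * Real.log D ^ 2 * (Real.exp (C0 * D) * S))) := by
          rw [← Real.sqrt_mul (by positivity)]
      _ ≤ Real.sqrt (S ^ 2) := by
          apply Real.sqrt_le_sqrt
          have h1 : t * (Real.exp D * Real.log D ^ 2 * Real.exp (C0 * D)) ≤ 1 := by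
            calc t * (Real.exp D * Real.log D ^ 2 * Real.exp (C0 * D)) ≤
                  t * (Real.exp D * Real.exp D * Real.exp (C0 * D)) := by
                  have := log_sq_le hD
                  gcongr
              _ = 1 := by
                  rw [ht, ← Real.exp_add, ← Real.exp_add, ← Real.exp_add]
                  rw [show -((C0 + 2) * D) + (D + D + C0 * D) = 0 by ring, Real.exp_zero]
          calc _ = (t * (Real.exp D * Real.log D ^ 2 * Real.exp (C0 * D))) * S ^ 2 := by ring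
            _ ≤ 1 * S ^ 2 := mul_le_mul_of_nonneg_right h1 (by positivity)
            _ = S ^ 2 := one_mul _
      _ = S := Real.sqrt_sq hS0

open Classical in
/-- **the floor may be assumed** -/
theorem heavy_of_floor (H : HEAVY_FLOOR) : HEAVY := by
  intro C0 hC0
  obtain ⟨C, hC⟩ := H C0 (2 * C0 + 2) hC0 (by linarith)
  refine ⟨C + 1, fun D n ι _ d hD => ?_⟩
  set bad : ι → ℕ → Prop := fun k i => ∃ j', d.js k ≤ j' ∧ j' ≤ n ∧
    av n j' (anc n j' i) (d.a k) < Real.exp (-((C0 + 2) * D)) * av n (d.js k) (d.ac k) (d.a k)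
    with hbad
  let d' : HData C0 D n ι :=
    { d with
      A := fun k i => if bad k i then 0 else d.A k i
      A_le := by
        intro k i
        split_ifs
        · rw [norm_zero]; exact d.a_nonneg k i
        · exact d.A_le k i
      alive := by
        intro k i h
        split_ifs at h with h1
        · exact absurd rfl h
        · exact d.alive k i h }
  have hd' : ‖d'.gain‖ ≤ C * D := by
    apply hC D n ι d' hD
    intro k i h j hj hjn
    have h' : (if bad k i then 0 else d.A k i) ≠ 0 := h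
    split_ifs at h' with h1
    · exact absurd rfl h'
    · simp only [hbad] at h1
      push Not at h1
      have h2 := h1 j hj hjn
      have h3 := d.a_mass k
      calc Real.exp (-((2 * C0 + 2) * D)) = Real.exp (-((C0 + 2) * D)) * Real.exp (-(C0 * D)) := by
            rw [← Real.exp_add]; congr 1; ring
        _ ≤ Real.exp (-((C0 + 2) * D)) * av n (d.js k) (d.ac k) (d.a k) :=
            mul_le_mul_of_nonneg_left h3 (Real.exp_pos _).le
        _ ≤ _ := h2
  have hsplit : d.gain = d'.gain + ∑ k, (∑ j ∈ Ico (d.js k + 3) (n - 1),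
      ∑ i ∈ range (2 ^ n), (if bad k i then d.A k i else 0) * (sg n j i : ℂ) *
        dB n d.p (d.ξ k) j (anc n j i)) / 2 ^ n := by
    unfold HData.gain
    rw [← sum_add_distrib]
    refine sum_congr rfl fun k _ => ?_
    rw [sum_div, ← sum_add_distrib]
    refine sum_congr rfl fun j _ => ?_
    rw [← add_div, ← sum_add_distrib]
    congr 1
    refine sum_congr rfl fun i _ => ?_
    change d.A k i * _ * _ = (if bad k i then 0 else d.A k i) * _ * _ + _
    split_ifs <;> ring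
  have ha1 : ∀ k i, d.a k i ≤ 1 := fun k i =>
    (single_le_sum (fun k _ => d.a_nonneg k i) (mem_univ k)).trans (d.a_sum i)
  have hrest : ‖∑ k, (∑ j ∈ Ico (d.js k + 3) (n - 1),
      ∑ i ∈ range (2 ^ n), (if bad k i then d.A k i else 0) * (sg n j i : ℂ) *
        dB n d.p (d.ξ k) j (anc n j i)) / 2 ^ n‖ ≤ 1 := by
    refine (norm_sum_le _ _).trans ?_
    have h1 : ∀ k ∈ (univ : Finset ι), ‖(∑ j ∈ Ico (d.js k + 3) (n - 1),
        ∑ i ∈ range (2 ^ n), (if bad k i then d.A k i else 0) * (sg n j i : ℂ) *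
        dB n d.p (d.ξ k) j (anc n j i)) / 2 ^ n‖ ≤ (∑ i ∈ range (2 ^ n), d.a k i) / 2 ^ n := by
      intro k _
      rw [norm_div, norm_pow, Complex.norm_ofNat]
      apply div_le_div_of_nonneg_right _ (by positivity)
      exact bad_class hD (d.js_le k) (d.ac_lt k) d.p (d.a k) (d.A k) (d.ξ k) d.p_nonneg d.p_le
        (d.a_nonneg k) (ha1 k) (d.a_supp k) (d.a_mass k) (d.A_le k) (d.alive k)
    refine (sum_le_sum h1).trans ?_
    rw [← sum_div, sum_comm, div_le_one (by positivity)]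
    calc ∑ i ∈ range (2 ^ n), ∑ k, d.a k i ≤ ∑ i ∈ range (2 ^ n), (1 : ℝ) :=
          sum_le_sum fun i _ => d.a_sum i
      _ = 2 ^ n := by simp
  rw [hsplit]
  refine (norm_add_le _ _).trans ?_
  nlinarith

end Vale.Agent.P091.T.H960
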